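import Vale.Agent.P070.Main

namespace Vale.Agent.Results.P070.Counter

universe u v w

/-- `f` is a star homomorphism of C*-algebras (not assumed unital). -/
def IsStarHom {A B : Type*} [CStarAlgebra A] [CStarAlgebra B] (f : A → B) : Prop :=
  (∀ a b, f (a + b) = f a + f b) ∧ (∀ (c : ℂ) a, f (c • a) = c • f a) ∧
    (∀ a b, f (a * b) = f a * f b) ∧ ∀ a, f (star a) = star (f a)

/-- `π` is nonzero and the only closed invariant subspaces are the trivial ones. -/
def Irreducible {A H : Type*} [NormedAddCommGroup H] [InnerProductSpace ℂ H]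
    (π : A → H →L[ℂ] H) : Prop :=
  π ≠ 0 ∧ ∀ K : Submodule ℂ H, IsClosed (K : Set H) → (∀ a, ∀ x ∈ K, π a x ∈ K) → K = ⊥ ∨ K = ⊤

/-- Unitary equivalence: a unitary `U` intertwines `π` and `σ`. -/
def Equivalent {A H K : Type*} [NormedAddCommGroup H] [InnerProductSpace ℂ H]
    [NormedAddCommGroup K] [InnerProductSpace ℂ K]
    (π : A → H →L[ℂ] H) (σ : A → K →L[ℂ] K) : Prop :=
  ∃ U : H ≃ₗᵢ[ℂ] K, ∀ a x, U (π a x) = σ a (U x)

/-- The compact operators on `H`. -/
def compacts (H : Type*) [NormedAddCommGroup H] [InnerProductSpace ℂ H] : Set (H →L[ℂ] H) :=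
  {T | IsCompactOperator T}

/-- The bundled form of a star homomorphism. -/
noncomputable def IsStarHom.hom {A B : Type*} [CStarAlgebra A] [CStarAlgebra B] {f : A → B}
    (h : IsStarHom f) : A →⋆ₙₐ[ℂ] B where
  toFun := f
  map_add' := h.1
  map_smul' := h.2.1
  map_mul' := h.2.2.1
  map_star' := h.2.2.2
  map_zero' := by simpa using h.2.1 0 0

open Vale.Agent.P070 in
/-- A counterexample to the problem of Naimark in ZFC: a nonzero C*-algebra all of whose
irreducible representations are unitarily equivalent, not isomorphic to the compact operators on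
any Hilbert space. -/
theorem result : ∃ (A : Type) (_ : CStarAlgebra A), Nontrivial A ∧
    (∀ (H : Type u) (K : Type v) [NormedAddCommGroup H] [InnerProductSpace ℂ H] [CompleteSpace H]
      [NormedAddCommGroup K] [InnerProductSpace ℂ K] [CompleteSpace K]
      (π : A → H →L[ℂ] H) (σ : A → K →L[ℂ] K), IsStarHom π → IsStarHom σ →
      Irreducible π → Irreducible σ → Equivalent π σ) ∧
    ∀ (H : Type w) [NormedAddCommGroup H] [InnerProductSpace ℂ H] [CompleteSpace H],
      ¬ ∃ Φ : A → H →L[ℂ] H, IsStarHom Φ ∧ Function.Injective Φ ∧ Set.range Φ = compacts H := by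
  obtain ⟨A, _, h1, h2⟩ := Vale.Agent.P070.main.{u, v}
  refine ⟨A, inferInstance, ?_, ?_, ?_⟩
  · by_contra h
    rw [not_nontrivial_iff_subsingleton] at h
    exact h1 inferInstance
  · intro H K _ _ _ _ _ _ π σ kπ kσ hπ hσ
    obtain ⟨_, ρ, a⟩ := unital kπ.hom (fun h => hπ.1 (funext fun c => DFunLike.congr_fun h c)) hπ.2
    obtain ⟨_, κ, b⟩ := unital kσ.hom (fun h => hσ.1 (funext fun c => DFunLike.congr_fun h c)) hσ.2
    obtain ⟨U, hU⟩ := h2 H K ρ κ (fun K h1 h2 => hπ.2 K h1 fun c x hx => by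
        have := h2 c x hx
        rwa [a] at this)
      (fun K h1 h2 => hσ.2 K h1 fun c x hx => by
        have := h2 c x hx
        rwa [b] at this)
    refine ⟨U, fun c x => ?_⟩
    have := hU c x
    rwa [a, b] at this
  · rintro H _ _ _ ⟨Φ, k, a, b⟩
    exact not_compacts h1 k.hom a b

end Vale.Agent.Results.P070.Counter
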